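import Vale.Agent.P179.H234.Nil

/-!
# (K5) the value of `l` at the relative trace of `u b_u`
-/

namespace P179Y

open Subgroup Finset P179H524 P179C P179A P179P

open scoped Classical

section K5

variable {p : ℕ} {k : Type*} [Field k] {G : Type*} [Group G] [Fintype G] {D : Subgroup G}
  {l : (G → k) → k}

/-- the indicator function of `v` -/
noncomputable def dl (v : G) : G → k := fun g => if g = v then 1 else 0

theorem conv_dl (v : G) (z : G → k) : conv (dl v) z = fun x => z (v⁻¹ * x) := by
  funext x
  unfold conv dl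
  rw [Finset.sum_eq_single v]
  · rw [if_pos rfl, one_mul]
  · intro h _ hne
    rw [if_neg hne, zero_mul]
  · intro h; exact absurd (Finset.mem_univ v) h

/-- `l` takes the value `1` at the elements of `D` -/
theorem BP.dl_eq_one [hp : Fact p.Prime] [CharP k p] (hl : BP p D l) (hD : IsPGroup p D)
    (hab : D ≤ centralizer (D : Set G)) {v : G} (hv : v ∈ D) : l (dl v) = 1 := by
  have hinv : ∀ w ∈ D, ∀ c ∈ centralizer (D : Set G), ∀ x : G,
      (dl w : G → k) (c * x * c⁻¹) = dl w x := by
    intro w hw c hc x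
    have h1 : c * w * c⁻¹ = w := by
      have := mem_centralizer_iff.1 hc w hw
      rw [← this]; group
    have h2 : c * x * c⁻¹ = w ↔ x = w := by
      constructor
      · intro h
        have h3 : c⁻¹ * (c * x * c⁻¹) * c = c⁻¹ * (c * w * c⁻¹) * c := by rw [h, h1]
        have e1 : c⁻¹ * (c * x * c⁻¹) * c = x := by group
        have e2 : c⁻¹ * (c * w * c⁻¹) * c = w := by group
        rwa [e1, e2] at h3
      · rintro rfl; exact h1
    simp only [dl, h2]
  have hpow : ∀ n : ℕ, l (dl (v ^ n)) = l (dl v) ^ n := by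
    intro n
    induction n with
    | zero =>
      rw [pow_zero, pow_zero]
      exact hl.one
    | succ n ih =>
      have h1 : (dl (v ^ (n + 1)) : G → k) = conv (dl (v ^ n)) (dl v) := by
        rw [conv_dl]
        funext x
        simp only [dl, pow_succ]
        congr 1
        rw [eq_iff_iff]
        constructor
        · rintro rfl
          exact inv_mul_cancel_left _ _
        · intro h
          exact inv_mul_eq_iff_eq_mul.1 h
      rw [h1, hl.mul' hD hab (hinv _ (pow_mem hv n)) (hinv _ hv), ih, pow_succ]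
  obtain ⟨a, ha⟩ := hD ⟨v, hv⟩
  have ha' : v ^ p ^ a = 1 := congrArg Subtype.val ha
  have h1 := hpow (p ^ a)
  rw [ha'] at h1
  have h2 : l (dl (1 : G)) = 1 := hl.one
  rw [h2] at h1
  have h3 : (l (dl v) - 1) ^ p ^ a = 0 := by
    rw [sub_pow_char_pow_of_commute _ _ (Commute.all _ _), ← h1, one_pow, sub_self]
  exact sub_eq_zero.1 (pow_eq_zero_iff (pow_pos hp.out.pos a).ne' |>.1 h3)

theorem BP.cj_cut (hl : BP p D l) {n : G} (hn : n ∈ normalizer (D : Set G)) (z : G → k) :
    l (cj n (cutC D z)) = l (cj n z) := by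
  refine hl.congr fun x hx => ?_
  unfold cj cutC
  rw [if_pos]
  have := (conj_mem_cent (inv_mem hn) x).2 hx
  simpa using this

/-- the functional on `H` given by `n` -/
theorem BP.isHomCF_cj [hp : Fact p.Prime] [CharP k p] (hl : BP p D l) (hD : IsPGroup p D)
    (hab : D ≤ centralizer (D : Set G)) {H : Subgroup G} (hCH : centralizer (D : Set G) ≤ H)
    {n : G} (hn : n ∈ normalizer (D : Set G)) :
    IsHomCF (fun z : H → k => l (cj n (ext H z))) where
  add a b := by
    rw [ext_add, cj_add, hl.add]
  smul c a := by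
    rw [ext_smul, cj_smul, hl.smul]
  one := by
    have h1 := ext_one (k := k) H (fun g => if g = 1 then 1 else 0) (if_pos rfl)
      (fun g hg => if_neg hg)
    have h2 := hl.one
    have h3 : cj n (fun g : G => if g = 1 then (1 : k) else 0) = fun g => if g = 1 then 1 else 0 :=
      cj_delta n
    rw [← h3, ← h1] at h2
    convert h2 using 3
    congr 1
    funext g
    congr
  mul a b ha hb := by
    rw [ext_conv, cj_conv]
    have key : ∀ a : H → k, IsCF a → ∀ c ∈ centralizer (D : Set G), ∀ x,
        cj n (ext H a) (c * x * c⁻¹) = cj n (ext H a) x := by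
      intro a ha c hc x
      have hc' : n⁻¹ * c * n ∈ centralizer (D : Set G) := by
        have := (conj_mem_cent (inv_mem hn) c).2 hc
        simpa using this
      have hcH := hCH hc'
      unfold cj
      have e : n⁻¹ * (c * x * c⁻¹) * n = (n⁻¹ * c * n) * (n⁻¹ * x * n) * (n⁻¹ * c * n)⁻¹ := by
        group
      rw [e]
      by_cases hx : n⁻¹ * x * n ∈ H
      · rw [ext_of_mem H a hx, ext_of_mem H a (mul_mem (mul_mem hcH hx) (inv_mem hcH))]
        exact ha ⟨_, hcH⟩ ⟨_, hx⟩
      · rw [ext_of_not_mem H a hx, ext_of_not_mem H a]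
        intro h
        apply hx
        have := mul_mem (mul_mem (inv_mem hcH) h) hcH
        have e1 : (n⁻¹ * c * n)⁻¹ * ((n⁻¹ * c * n) * (n⁻¹ * x * n) * (n⁻¹ * c * n)⁻¹) *
            (n⁻¹ * c * n) = n⁻¹ * x * n := by group
        rwa [e1] at this
    exact hl.mul' hD hab (key a ha) (key b hb)

/-- for `n ∉ stabT`, the functional of `n` on `H = C_G(u)` differs from `lres H l` on the class
functions of `H` -/
theorem exists_diff [hp : Fact p.Prime] [CharP k p] (hl : BP p D l) (hD : IsPGroup p D)
    (hab : D ≤ centralizer (D : Set G)) {u : G} (hu : RegEl D u) {H : Subgroup G}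
    (hH : H = centralizer {u})
    {n : G} (hn : n ∈ normalizer (D : Set G)) (hnT : n ∉ stabT D l) :
    ∃ y : H → k, IsCF y ∧ lres H l y ≠ 0 ∧ l (cj n (ext H y)) = 0 := by
  have hDH : D ≤ H := hH ▸ le_cent_of_mem hu.1 hab
  have hCH : centralizer (D : Set G) ≤ H := hH ▸ cent_le_of_mem hu.1
  obtain ⟨t, ht, hlt, htD, htF⟩ := exists_sep_finset hl (Finset.univ : Finset G)
  let C : Subgroup H := centralizer ((D.subgroupOf H : Subgroup H) : Set H)
  let t' : H → k := fun h => t h
  have ht' : InvOn C t' := by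
    constructor
    · intro c hc x
      exact ht.1 c ((mem_cent_subgroupOf hDH _).1 hc) x
    · intro x hx
      exact ht.2 x fun h => hx ((mem_cent_subgroupOf hDH _).2 h)
  have htD' : DSupp p (D.subgroupOf H) t' := by
    intro x hx P hP hPx hPC y hy
    rw [Subgroup.mem_subgroupOf]
    have h1 := htD x hx (P.map H.subtype) (hP.map _) ?_ ?_
    · exact h1 ⟨y, hy, rfl⟩
    · rintro _ ⟨z, hz, rfl⟩
      have := hPx hz
      rw [mem_centralizer_singleton_iff] at this ⊢
      exact congrArg Subtype.val this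
    · rintro _ ⟨z, hz, rfl⟩
      exact (mem_cent_subgroupOf hDH z).1 (hPC hz)
  have hDp : IsPGroup p (D.subgroupOf H) := hD.comap_subtype
  have habH : D.subgroupOf H ≤ centralizer ((D.subgroupOf H : Subgroup H) : Set H) := by
    intro x hx
    rw [mem_cent_subgroupOf hDH]
    exact hab (by simpa [Subgroup.mem_subgroupOf] using hx)
  have hNC : normalizer ((D.subgroupOf H : Subgroup H) : Set H) ≤ C := by
    subst hH
    exact hu.norm_le hab
  have hy : ∀ x : H, x ∈ C → trG C t' x = t x := by
    intro x hx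
    rw [trG_cent hDp habH ht' htD' hx, Finset.sum_eq_single ((1 : H) : H ⧸ C)]
    · obtain ⟨c, hc⟩ := QuotientGroup.mk_out_eq_mul C (1 : H)
      rw [hc, one_mul, if_pos (cent_le_norm _ c.2)]
      unfold cj
      have := ht'.1 (c : H)⁻¹ (inv_mem c.2) x
      rw [inv_inv] at this
      exact this
    · intro c _ hc
      rw [if_neg]
      intro h
      apply hc
      have h1 := hNC h
      have h2 : ((c.out : H) : H ⧸ C) = ((1 : H) : H ⧸ C) := by
        rw [QuotientGroup.eq]
        simpa using inv_mem h1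
      rwa [QuotientGroup.out_eq'] at h2
    · intro h; exact absurd (Finset.mem_univ _) h
  refine ⟨trG C t', isCF_trG C ht'.1, ?_, ?_⟩
  · have : lres H l (trG C t') = l t := by
      rw [lres]
      refine hl.congr fun x hx => ?_
      rw [ext_of_mem H _ (hCH hx), hy _ ((mem_cent_subgroupOf hDH _).2 hx)]
    rw [this]; exact hlt
  · have : l (cj n (ext H (trG C t'))) = l (cj n t) := by
      refine hl.congr fun x hx => ?_
      unfold cj
      have hx' : n⁻¹ * x * n ∈ centralizer (D : Set G) := by
        have := (conj_mem_cent (inv_mem hn) x).2 hx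
        simpa using this
      rw [ext_of_mem H _ (hCH hx'), hy _ ((mem_cent_subgroupOf hDH _).2 hx')]
    rw [this]
    exact htF n (Finset.mem_univ _) hn hnT

end K5

section Final

variable (p : ℕ) [hp : Fact p.Prime] {k : Type*} [Field k] [IsAlgClosed k] [CharP k p]
  (red : integralClosure ℤ ℂ →+* k) {G : Type} [Group G] [Fintype G] {D : Subgroup G}
  {l : (G → k) → k}

include p hp in
theorem K5_aux (hl : BP p D l) (hD : IsPGroup p D) (hab : D ≤ centralizer (D : Set G))
    {u : G} (hu : RegEl D u) {H : Subgroup G} (hH : H = centralizer {u}) {b : H → k} (hb : IsCF b)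
    (hbb : conv b b = b) (hlb : lres H l b = 1)
    (hpsi : ∀ ψ : Irr H, ¬ InL red (lres H l) ψ.1 → lam red ψ.1 b = 0) :
    l (trG H (fun x => ext H b (u⁻¹ * x))) =
      ((centralizer (D : Set G)).relIndex (stabT D l) : k) := by
  have hDH : D ≤ H := hH ▸ le_cent_of_mem hu.1 hab
  have hCH : centralizer (D : Set G) ≤ H := hH ▸ cent_le_of_mem hu.1
  have hHu : ∀ {h : G}, h ∈ H → h * u = u * h := fun {h} hh =>
    mem_centralizer_singleton_iff.1 (hH ▸ hh)
  have hlH := hl.restrict hDH hCH
  have hDp : IsPGroup p (D.subgroupOf H) := hD.comap_subtype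
  have habH : D.subgroupOf H ≤ centralizer ((D.subgroupOf H : Subgroup H) : Set H) := by
    intro x hx
    rw [mem_cent_subgroupOf hDH]
    exact hab (by simpa [Subgroup.mem_subgroupOf] using hx)
  obtain ⟨y, hyCF, hyD, hly⟩ := exists_Y hlH hDp habH (by
    subst hH
    rw [hu.relIndex_stabT hab]
    exact fun h => hp.out.one_lt.ne' (Nat.dvd_one.1 h))
  have hbD : SuppIn p (D.subgroupOf H) b := suppIn_of_block p red hb hbb hpsi hyCF hly hyD
  set a : G → k := fun x => ext H b (u⁻¹ * x) with ha
  have hainv : ∀ h ∈ H, ∀ x, a (h * x * h⁻¹) = a x := by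
    intro h hh x
    have e : u⁻¹ * (h * x * h⁻¹) = h * (u⁻¹ * x) * h⁻¹ := by
      have h1 := hHu hh
      have h2 : u⁻¹ * h = h * u⁻¹ := by
        calc u⁻¹ * h = u⁻¹ * (h * u) * u⁻¹ := by group
          _ = h * u⁻¹ := by rw [h1]; group
      calc u⁻¹ * (h * x * h⁻¹) = (u⁻¹ * h) * x * h⁻¹ := by group
        _ = h * (u⁻¹ * x) * h⁻¹ := by rw [h2]; group
    simp only [ha]
    rw [e]
    by_cases hx : u⁻¹ * x ∈ H
    · rw [ext_of_mem H b hx, ext_of_mem H b (mul_mem (mul_mem hh hx) (inv_mem hh))]
      exact hb ⟨h, hh⟩ ⟨_, hx⟩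
    · rw [ext_of_not_mem H b hx, ext_of_not_mem H b]
      intro h1
      apply hx
      have h2 := mul_mem (mul_mem (inv_mem hh) h1) hh
      have e1 : h⁻¹ * (h * (u⁻¹ * x) * h⁻¹) * h = u⁻¹ * x := by group
      rwa [e1] at h2
  -- the relative trace on the centraliser of `D`
  have htr : ∀ x ∈ centralizer (D : Set G), trG H a x =
      ∑ d : G ⧸ centralizer (D : Set G),
        (if d.out ∈ normalizer (D : Set G) then cj d.out a x else 0) := by
    intro x hx
    have h1 : trG H a x = ∑ c : G ⧸ H,
        (if ∃ h ∈ H, c.out * h ∈ normalizer (D : Set G) then a (c.out⁻¹ * x * c.out) else 0) := by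
      rw [← sub_eq_zero]
      unfold trG
      rw [← Finset.sum_sub_distrib]
      have h := exists_fixed_coset p H hainv (x := x)
        (fun c => ¬ ∃ h ∈ H, c * h ∈ normalizer (D : Set G)) D hD ?_ ?_ ?_ ?_
      · refine Eq.trans (Finset.sum_congr rfl fun c _ => ?_) h
        by_cases hc : ∃ h ∈ H, c.out * h ∈ normalizer (D : Set G)
        · rw [if_pos hc, if_neg (not_not.2 hc), sub_self]
        · rw [if_neg hc, if_pos hc, sub_zero]
      · intro d hd
        rw [mem_centralizer_singleton_iff]
        exact (mem_centralizer_iff.1 hx d hd)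
      · intro q hq c
        have hqN := cent_le_norm D (hab hq)
        refine not_congr (exists_congr fun h => and_congr_right fun _ => ?_)
        rw [mul_assoc]
        exact ⟨fun h => mul_mem hqN h, fun h => by simpa using mul_mem (inv_mem hqN) h⟩
      · intro q hq c
        refine not_congr ⟨?_, ?_⟩
        · rintro ⟨h, hh, hn⟩
          exact ⟨q⁻¹ * h, mul_mem (inv_mem hq) hh, by simpa [mul_assoc] using hn⟩
        · rintro ⟨h, hh, hn⟩
          exact ⟨q * h, mul_mem hq hh, by simpa [mul_assoc] using hn⟩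
      · intro c hc hcD
        by_contra hne
        apply hc
        simp only [ha] at hne
        have hs : u⁻¹ * (c⁻¹ * x * c) ∈ H := by
          by_contra h
          exact hne (ext_of_not_mem H b h)
        rw [ext_of_mem H b hs] at hne
        let P : Subgroup H := (D.map (MulAut.conj c⁻¹).toMonoidHom).subgroupOf H
        have hP : IsPGroup p P := (hD.map _).comap_subtype
        obtain ⟨h, hh⟩ := hbD _ hne P hP (by
          intro q hq
          rw [mem_centralizer_singleton_iff]
          obtain ⟨d, hd, hdq⟩ := (Subgroup.mem_subgroupOf.1 hq)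
          apply Subtype.ext
          change (q : G) * (u⁻¹ * (c⁻¹ * x * c)) = (u⁻¹ * (c⁻¹ * x * c)) * (q : G)
          have h2 : (q : G) = c⁻¹ * d * c := by
            have : (q : G) = (MulAut.conj c⁻¹) d := hdq.symm
            rw [this]; simp
          have h3 := mem_centralizer_iff.1 hx d hd
          have h4 := hHu q.2
          have h5 : (q : G) * u⁻¹ = u⁻¹ * q := by
            calc (q : G) * u⁻¹ = u⁻¹ * (u * q) * u⁻¹ := by group
              _ = u⁻¹ * q := by rw [← h4]; group
          have h6 : (q : G) * (c⁻¹ * x * c) = (c⁻¹ * x * c) * q := by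
            rw [h2]
            calc c⁻¹ * d * c * (c⁻¹ * x * c) = c⁻¹ * (d * x) * c := by group
              _ = c⁻¹ * x * c * (c⁻¹ * d * c) := by rw [h3]; group
          calc (q : G) * (u⁻¹ * (c⁻¹ * x * c)) = ((q : G) * u⁻¹) * (c⁻¹ * x * c) :=
                (mul_assoc _ _ _).symm
            _ = u⁻¹ * ((q : G) * (c⁻¹ * x * c)) := by rw [h5]; exact mul_assoc _ _ _
            _ = u⁻¹ * (c⁻¹ * x * c) * (q : G) := by rw [h6]; exact (mul_assoc _ _ _).symm)
        refine ⟨h, h.2, ?_⟩
        apply mem_norm_of_conj_le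
        intro d hd
        have h3 := hh ⟨c⁻¹ * d * c, hcD d hd⟩ (by
          rw [Subgroup.mem_subgroupOf]
          exact ⟨d, hd, by simp⟩)
        rw [Subgroup.mem_subgroupOf] at h3
        have e : ((h⁻¹ * ⟨c⁻¹ * d * c, hcD d hd⟩ * h : H) : G) =
            (c * (h : G))⁻¹ * d * (c * (h : G)) := by
          change (h : G)⁻¹ * (c⁻¹ * d * c) * (h : G) = _
          group
        rwa [e] at h3
    rw [h1, ← Finset.sum_filter, ← Finset.sum_filter]
    symm
    refine Finset.sum_bij (fun d _ => ((d.out : G) : G ⧸ H)) ?_ ?_ ?_ ?_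
    · intro d hd
      rw [mem_filter] at hd ⊢
      refine ⟨Finset.mem_univ _, ?_⟩
      obtain ⟨h, hh⟩ := QuotientGroup.mk_out_eq_mul H d.out
      refine ⟨(h : G)⁻¹, inv_mem h.2, ?_⟩
      rw [hh]
      simpa using hd.2
    · intro d hd d' hd' hdd
      rw [mem_filter] at hd hd'
      have h2 : (d.out)⁻¹ * d'.out ∈ H := QuotientGroup.eq.1 hdd
      have h3 : (d.out)⁻¹ * d'.out ∈ normalizer (D : Set G) := mul_mem (inv_mem hd.2) hd'.2
      have h4 : (d.out)⁻¹ * d'.out ∈ centralizer (D : Set G) := by
        refine hu.2 _ h3 ?_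
        have := hHu h2
        rw [this]; group
      have h5 : ((d.out : G) : G ⧸ centralizer (D : Set G)) = ((d'.out : G) : G ⧸ _) :=
        QuotientGroup.eq.2 h4
      rwa [QuotientGroup.out_eq', QuotientGroup.out_eq'] at h5
    · intro c hc
      rw [mem_filter] at hc
      obtain ⟨h, hh, hn⟩ := hc.2
      refine ⟨((c.out * h : G) : G ⧸ centralizer (D : Set G)), ?_, ?_⟩
      · rw [mem_filter]
        refine ⟨Finset.mem_univ _, ?_⟩
        obtain ⟨h', hh'⟩ := QuotientGroup.mk_out_eq_mul (centralizer (D : Set G)) (c.out * h)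
        rw [hh']
        exact mul_mem hn (cent_le_norm D h'.2)
      · obtain ⟨h', hh'⟩ := QuotientGroup.mk_out_eq_mul (centralizer (D : Set G)) (c.out * h)
        rw [hh']
        have h2 : ((c.out * h * h' : G) : G ⧸ H) = ((c.out : G) : G ⧸ H) := by
          rw [QuotientGroup.eq]
          have : (c.out * h * h')⁻¹ * c.out = (h * h')⁻¹ := by group
          rw [this]
          exact inv_mem (mul_mem hh (hCH h'.2))
        rw [h2, QuotientGroup.out_eq']
    · intro d hd
      have := apply_out hainv (d.out) x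
      rw [this]
      rfl
  have h2 : l (trG H a) = ∑ d : G ⧸ centralizer (D : Set G),
      l (if d.out ∈ normalizer (D : Set G) then cj d.out a else 0) := by
    rw [← hl.sum]
    refine hl.congr fun x hx => ?_
    rw [htr x hx, Finset.sum_apply]
    refine Finset.sum_congr rfl fun c _ => ?_
    split_ifs <;> rfl
  have h3 : ∀ n ∈ normalizer (D : Set G), l (cj n a) = if n ∈ stabT D l then 1 else 0 := by
    intro n hn
    have hv : n * u * n⁻¹ ∈ D := (mem_normalizer_iff.1 hn u).1 hu.1
    have e1 : cj n a = conv (dl (n * u * n⁻¹)) (cj n (ext H b)) := by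
      rw [conv_dl]
      funext x
      simp only [cj, ha]
      congr 1
      group
    have hbi : ∀ c ∈ centralizer (D : Set G), ∀ x,
        cj n (ext H b) (c * x * c⁻¹) = cj n (ext H b) x := by
      intro c hc x
      have hc' : n⁻¹ * c * n ∈ centralizer (D : Set G) := by
        have := (conj_mem_cent (inv_mem hn) c).2 hc
        simpa using this
      have hcH := hCH hc'
      unfold cj
      have e : n⁻¹ * (c * x * c⁻¹) * n = (n⁻¹ * c * n) * (n⁻¹ * x * n) * (n⁻¹ * c * n)⁻¹ := by
        group
      rw [e]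
      by_cases hx : n⁻¹ * x * n ∈ H
      · rw [ext_of_mem H b hx, ext_of_mem H b (mul_mem (mul_mem hcH hx) (inv_mem hcH))]
        exact hb ⟨_, hcH⟩ ⟨_, hx⟩
      · rw [ext_of_not_mem H b hx, ext_of_not_mem H b]
        intro h
        apply hx
        have := mul_mem (mul_mem (inv_mem hcH) h) hcH
        have e1 : (n⁻¹ * c * n)⁻¹ * ((n⁻¹ * c * n) * (n⁻¹ * x * n) * (n⁻¹ * c * n)⁻¹) *
            (n⁻¹ * c * n) = n⁻¹ * x * n := by group
        rwa [e1] at this
    have hdi : ∀ c ∈ centralizer (D : Set G), ∀ x : G,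
        (dl (n * u * n⁻¹) : G → k) (c * x * c⁻¹) = dl (n * u * n⁻¹) x := by
      intro c hc x
      have h1 : c * (n * u * n⁻¹) * c⁻¹ = n * u * n⁻¹ := by
        have := mem_centralizer_iff.1 hc _ hv
        rw [← this]; group
      have h2 : c * x * c⁻¹ = n * u * n⁻¹ ↔ x = n * u * n⁻¹ := by
        constructor
        · intro h
          have h3 : c⁻¹ * (c * x * c⁻¹) * c = c⁻¹ * (c * (n * u * n⁻¹) * c⁻¹) * c := by
            rw [h, h1]
          have e1 : c⁻¹ * (c * x * c⁻¹) * c = x := by group
          have e2 : c⁻¹ * (c * (n * u * n⁻¹) * c⁻¹) * c = n * u * n⁻¹ := by group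
          rwa [e1, e2] at h3
        · rintro rfl; exact h1
      simp only [dl, h2]
    rw [e1, hl.mul' hD hab hdi hbi, hl.dl_eq_one hD hab hv, one_mul]
    by_cases hnT : n ∈ stabT D l
    · rw [if_pos hnT, ← hl.cj_cut hn]
      have hinv : InvOn (centralizer (D : Set G)) (cutC D (ext H b)) := by
        apply invOn_cutC
        intro c hc x
        have hcH := hCH hc
        by_cases hx : x ∈ H
        · rw [ext_of_mem H b hx, ext_of_mem H b (mul_mem (mul_mem hcH hx) (inv_mem hcH))]
          exact hb ⟨_, hcH⟩ ⟨_, hx⟩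
        · rw [ext_of_not_mem H b hx, ext_of_not_mem H b]
          intro h
          apply hx
          have := mul_mem (mul_mem (inv_mem hcH) h) hcH
          have e1 : c⁻¹ * (c * x * c⁻¹) * c = x := by group
          rwa [e1] at this
      rw [hnT.2 _ hinv, hl.cut]
      exact hlb
    · rw [if_neg hnT]
      obtain ⟨y', hy', hly', hly0⟩ := exists_diff hl hD hab hu hH hn hnT
      have hμ := hl.isHomCF_cj hD hab hCH hn (H := H)
      obtain ⟨ψ, hψ⟩ := exists_inL p red hμ
      by_cases hψl : InL red (lres H l) ψ.1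
      · exfalso
        apply hly'
        rw [← hψl y' hy', hψ y' hy']
        exact hly0
      · have := hpsi ψ hψl
        rw [hψ b hb] at this
        exact this
  rw [h2, ← card_cosets _ _ (cent_le_stabT D l), ← nsmul_one, ← Finset.sum_const,
    Finset.sum_filter]
  refine Finset.sum_congr rfl fun d _ => ?_
  by_cases hd : d.out ∈ normalizer (D : Set G)
  · rw [if_pos hd, h3 _ hd]
  · rw [if_neg hd, hl.zero, if_neg fun h => hd (stabT_le_norm D l h)]


include p hp in
/-- **(K5)** -/
theorem K5 (hl : BP p D l) (hD : IsPGroup p D) (hab : D ≤ centralizer (D : Set G))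
    {u : G} (hu : RegEl D u) {b : (centralizer {u} : Subgroup G) → k} (hb : IsCF b)
    (hbb : conv b b = b) (hlb : lres (centralizer {u}) l b = 1)
    (hpsi : ∀ ψ : Irr (centralizer {u} : Subgroup G),
      ¬ InL red (lres (centralizer {u}) l) ψ.1 → lam red ψ.1 b = 0) :
    l (trG (centralizer {u}) (fun x => ext (centralizer {u}) b (u⁻¹ * x))) =
      ((centralizer (D : Set G)).relIndex (stabT D l) : k) :=
  K5_aux p red hl hD hab hu rfl hb hbb hlb hpsi

end Final

end P179Y
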