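import Mathlib

/-!
# (AG) the arithmetic-geometric mean inequality for values of an integral polynomial at the
primitive `n`-th roots of unity
-/

namespace P179H234

open Polynomial Finset

theorem exists_int_prod_aux {n : ℕ} (hn : 0 < n) (P : ℤ[X]) (K : Type*) [Field K] [CharZero K]
    [Algebra ℚ K] [IsCyclotomicExtension {n} ℚ K] :
    (∃ c : ℤ, ∏ μ ∈ primitiveRoots n ℂ, aeval μ P = (c : ℂ)) ∧
    (∃ c : ℤ, ∑ μ ∈ primitiveRoots n ℂ, aeval μ P = (c : ℂ)) := by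
  have : NeZero n := ⟨hn.ne'⟩
  have : FiniteDimensional ℚ K := IsCyclotomicExtension.finiteDimensional {n} ℚ K
  have hζ := IsCyclotomicExtension.zeta_spec n ℚ K
  have hirr : Irreducible (cyclotomic n ℚ) := cyclotomic.irreducible_rat hn
  set x : K := aeval (IsCyclotomicExtension.zeta n ℚ K) P with hx
  have hxi : IsIntegral ℤ x := by
    have : x ∈ Algebra.adjoin ℤ {IsCyclotomicExtension.zeta n ℚ K} := by
      rw [hx]; exact Polynomial.aeval_mem_adjoin_singleton _ _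
    have h2 : Algebra.adjoin ℤ {IsCyclotomicExtension.zeta n ℚ K} ≤ integralClosure ℤ K := by
      rw [Algebra.adjoin_le_iff]
      intro y hy
      rw [Set.mem_singleton_iff] at hy
      subst hy
      exact hζ.isIntegral hn
    exact h2 this
  have key : ∀ σ : K →ₐ[ℚ] ℂ, aeval (σ (IsCyclotomicExtension.zeta n ℚ K)) P = σ x := by
    intro σ
    have := Polynomial.aeval_algHom_apply (σ.restrictScalars ℤ) (IsCyclotomicExtension.zeta n ℚ K) P
    simpa [hx] using this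
  constructor
  · have h1 := Algebra.isIntegral_norm ℚ hxi
    obtain ⟨c, hc⟩ := (IsIntegrallyClosed.isIntegral_iff (R := ℤ) (K := ℚ)).1 h1
    refine ⟨c, ?_⟩
    have h3 := Algebra.norm_eq_prod_embeddings ℚ ℂ x
    rw [← hc] at h3
    have h4 : ∏ μ ∈ primitiveRoots n ℂ, aeval μ P = ∏ σ : K →ₐ[ℚ] ℂ, σ x := by
      rw [← Finset.prod_coe_sort (primitiveRoots n ℂ) (fun μ => aeval μ P)]
      symm
      refine Fintype.prod_equiv (hζ.embeddingsEquivPrimitiveRoots ℂ hirr) _ _ fun σ => ?_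
      rw [IsPrimitiveRoot.embeddingsEquivPrimitiveRoots_apply_coe, key]
    rw [h4, ← h3]
    simp
  · have h1 := Algebra.isIntegral_trace (L := ℚ) hxi
    obtain ⟨c, hc⟩ := (IsIntegrallyClosed.isIntegral_iff (R := ℤ) (K := ℚ)).1 h1
    refine ⟨c, ?_⟩
    have h3 := trace_eq_sum_embeddings (K := ℚ) (L := K) ℂ (x := x)
    rw [← hc] at h3
    have h4 : ∑ μ ∈ primitiveRoots n ℂ, aeval μ P = ∑ σ : K →ₐ[ℚ] ℂ, σ x := by
      rw [← Finset.sum_coe_sort (primitiveRoots n ℂ) (fun μ => aeval μ P)]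
      symm
      refine Fintype.sum_equiv (hζ.embeddingsEquivPrimitiveRoots ℂ hirr) _ _ fun σ => ?_
      rw [IsPrimitiveRoot.embeddingsEquivPrimitiveRoots_apply_coe, key]
    rw [h4, ← h3]
    simp

/-- The product of the values of an integral polynomial at the primitive `n`-th roots of unity is
an integer. -/
theorem exists_int_prod {n : ℕ} (hn : 0 < n) (P : ℤ[X]) :
    ∃ c : ℤ, ∏ μ ∈ primitiveRoots n ℂ, aeval μ P = (c : ℂ) := by
  have : NeZero n := ⟨hn.ne'⟩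
  have : IsCyclotomicExtension {n} ℚ (CyclotomicField n ℚ) :=
    CyclotomicField.isCyclotomicExtension n ℚ
  exact (exists_int_prod_aux hn P (CyclotomicField n ℚ)).1

/-- The sum of the values of an integral polynomial at the primitive `n`-th roots of unity is
an integer. -/
theorem exists_int_sum {n : ℕ} (hn : 0 < n) (P : ℤ[X]) :
    ∃ c : ℤ, ∑ μ ∈ primitiveRoots n ℂ, aeval μ P = (c : ℂ) := by
  have : NeZero n := ⟨hn.ne'⟩
  have : IsCyclotomicExtension {n} ℚ (CyclotomicField n ℚ) :=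
    CyclotomicField.isCyclotomicExtension n ℚ
  exact (exists_int_prod_aux hn P (CyclotomicField n ℚ)).2

/-- An integral polynomial which vanishes at one primitive `n`-th root of unity vanishes at all. -/
theorem aeval_eq_zero_of {n : ℕ} (hn : 0 < n) {ζ μ : ℂ} (hζ : IsPrimitiveRoot ζ n)
    (hμ : IsPrimitiveRoot μ n) {P : ℤ[X]} (h : aeval ζ P = 0) : aeval μ P = 0 := by
  have h1 : cyclotomic n ℤ ∣ P := by
    rw [cyclotomic_eq_minpoly hζ hn]
    exact minpoly.isIntegrallyClosed_dvd (hζ.isIntegral hn) h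
  obtain ⟨Q, rfl⟩ := h1
  have h2 : aeval μ (cyclotomic n ℤ) = 0 := by
    rw [cyclotomic_eq_minpoly hμ hn]
    exact minpoly.aeval _ _
  rw [map_mul, h2, zero_mul]

/-- **(AG)**, inequality: the mean of `|P|²` over the primitive `n`-th roots of unity is at least
`1` if `P` does not vanish there. -/
theorem totient_le_sum {n : ℕ} (hn : 0 < n) {ζ : ℂ} (hζ : IsPrimitiveRoot ζ n) (P : ℤ[X])
    (h : aeval ζ P ≠ 0) :
    (n.totient : ℝ) ≤ ∑ μ ∈ primitiveRoots n ℂ, ‖aeval μ P‖ ^ 2 ∧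
    (∑ μ ∈ primitiveRoots n ℂ, ‖aeval μ P‖ ^ 2 ≤ (n.totient : ℝ) →
      ∀ μ ∈ primitiveRoots n ℂ, ‖aeval μ P‖ = 1) := by
  have hne : ∀ μ ∈ primitiveRoots n ℂ, aeval μ P ≠ 0 := by
    intro μ hμ h0
    rw [mem_primitiveRoots hn] at hμ
    exact h (aeval_eq_zero_of hn hμ hζ h0)
  obtain ⟨c, hc⟩ := exists_int_prod hn P
  have hc0 : c ≠ 0 := by
    rintro rfl
    rw [Int.cast_zero, Finset.prod_eq_zero_iff] at hc
    obtain ⟨μ, hμ, h0⟩ := hc
    exact hne μ hμ h0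
  have hpos : ∀ μ ∈ primitiveRoots n ℂ, 0 < ‖aeval μ P‖ ^ 2 := fun μ hμ => by
    have := norm_pos_iff.2 (hne μ hμ)
    positivity
  have hlog : 0 ≤ ∑ μ ∈ primitiveRoots n ℂ, Real.log (‖aeval μ P‖ ^ 2) := by
    rw [← Real.log_prod (fun μ hμ => (hpos μ hμ).ne')]
    apply Real.log_nonneg
    rw [Finset.prod_pow, ← norm_prod, hc]
    have : (1 : ℝ) ≤ ‖(c : ℂ)‖ := by
      rw [Complex.norm_intCast]
      exact_mod_cast Int.one_le_abs hc0
    nlinarith
  have hcard : (n.totient : ℝ) = ∑ μ ∈ primitiveRoots n ℂ, (1 : ℝ) := by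
    rw [Finset.sum_const, hζ.card_primitiveRoots]; simp
  have hle : ∀ μ ∈ primitiveRoots n ℂ, Real.log (‖aeval μ P‖ ^ 2) ≤ ‖aeval μ P‖ ^ 2 - 1 :=
    fun μ hμ => Real.log_le_sub_one_of_pos (hpos μ hμ)
  have hsum := Finset.sum_le_sum hle
  rw [Finset.sum_sub_distrib, ← hcard] at hsum
  refine ⟨by linarith, fun hub μ hμ => ?_⟩
  by_contra hne1
  have hne2 : ‖aeval μ P‖ ^ 2 ≠ 1 := by
    intro h1
    apply hne1
    have h0 : (0 : ℝ) ≤ ‖aeval μ P‖ := norm_nonneg _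
    nlinarith
  have hlt : Real.log (‖aeval μ P‖ ^ 2) < ‖aeval μ P‖ ^ 2 - 1 :=
    Real.log_lt_sub_one_of_pos (hpos μ hμ) hne2
  have := Finset.sum_lt_sum hle ⟨μ, hμ, hlt⟩
  rw [Finset.sum_sub_distrib, ← hcard] at this
  linarith

/-- If the value of `P` at `ζ` is unchanged when `ζ` is replaced by `ζ ^ m`, `m` a generator of
`(ℤ/n)ˣ`, then it is an integer. -/
theorem exists_int_of_gen {n : ℕ} (hn : 0 < n) {ζ : ℂ} (hζ : IsPrimitiveRoot ζ n) (P : ℤ[X])
    {m : ℕ} (hm : m.Coprime n) (hgen : ∀ j : ℕ, j.Coprime n → ∃ i : ℕ, m ^ i ≡ j [MOD n])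
    (h : aeval (ζ ^ m) P = aeval ζ P) : ∃ c : ℤ, aeval ζ P = c := by
  have hQ : ∀ (Q : ℤ[X]) (x : ℂ), aeval x (expand ℤ m Q) = aeval (x ^ m) Q := fun Q x => by
    rw [expand_aeval]
  have hstep : ∀ i : ℕ, aeval (ζ ^ m ^ i) P = aeval ζ P := by
    intro i
    induction i with
    | zero => simp
    | succ i ih =>
      have hi : IsPrimitiveRoot (ζ ^ m ^ i) n := hζ.pow_of_coprime _ (Nat.Coprime.pow_left i hm)
      have h0 : aeval ζ (expand ℤ m P - P) = 0 := by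
        rw [map_sub, hQ, h, sub_self]
      have h1 := aeval_eq_zero_of hn hζ hi h0
      rw [map_sub, hQ, sub_eq_zero, ← pow_mul, ← pow_succ] at h1
      rw [h1, ih]
  have hall : ∀ μ ∈ primitiveRoots n ℂ, aeval μ P = aeval ζ P := by
    intro μ hμ
    rw [mem_primitiveRoots hn] at hμ
    have : NeZero n := ⟨hn.ne'⟩
    obtain ⟨j, hjn, hj, rfl⟩ := (hζ.isPrimitiveRoot_iff).1 hμ
    obtain ⟨i, hi⟩ := hgen j hj
    rw [← hstep i]
    congr 1
    have h1 : ζ ^ n = 1 := hζ.pow_eq_one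
    rw [← Nat.mod_add_div (m ^ i) n, ← Nat.mod_add_div j n, pow_add, pow_add, pow_mul, pow_mul, h1]
    simp only [one_pow, mul_one]
    rw [hi]
  obtain ⟨c, hc⟩ := exists_int_sum hn P
  rw [Finset.sum_congr rfl hall, Finset.sum_const, hζ.card_primitiveRoots, nsmul_eq_mul] at hc
  have hφ : (n.totient : ℂ) ≠ 0 := by
    exact_mod_cast (Nat.totient_pos.2 hn).ne'
  have hint : IsIntegral ℤ (aeval ζ P) := by
    have h1 : aeval ζ P ∈ Algebra.adjoin ℤ {ζ} := Polynomial.aeval_mem_adjoin_singleton _ _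
    have h2 : Algebra.adjoin ℤ {ζ} ≤ integralClosure ℤ ℂ := by
      rw [Algebra.adjoin_le_iff]
      intro y hy
      rw [Set.mem_singleton_iff] at hy
      subst hy
      exact hζ.isIntegral hn
    exact h2 h1
  have hq : aeval ζ P = algebraMap ℚ ℂ ((c : ℚ) / n.totient) := by
    rw [map_div₀, eq_div_iff (by simpa using hφ), mul_comm]
    simpa using hc
  rw [hq] at hint
  have h3 : IsIntegral ℤ ((c : ℚ) / n.totient) :=
    (isIntegral_algebraMap_iff (algebraMap ℚ ℂ).injective).1 hint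
  obtain ⟨d, hd⟩ := (IsIntegrallyClosed.isIntegral_iff (R := ℤ) (K := ℚ)).1 h3
  refine ⟨d, ?_⟩
  rw [hq, ← hd]
  simp

/-- The primitive `n`-th roots of unity are the `ζ ^ j`, `j` coprime to `n`. -/
theorem sum_primitiveRoots {n : ℕ} (hn : 0 < n) {ζ : ℂ} (hζ : IsPrimitiveRoot ζ n)
    {M : Type*} [AddCommMonoid M] (f : ℂ → M) :
    ∑ μ ∈ primitiveRoots n ℂ, f μ = ∑ j ∈ (range n).filter (fun j => j.Coprime n), f (ζ ^ j) := by
  symm
  refine Finset.sum_bij (fun j _ => ζ ^ j) ?_ ?_ ?_ ?_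
  · intro j hj
    rw [mem_filter, mem_range] at hj
    rw [mem_primitiveRoots hn]
    exact hζ.pow_of_coprime _ hj.2
  · intro i hi j hj h
    rw [mem_filter, mem_range] at hi hj
    exact hζ.pow_inj hi.1 hj.1 h
  · intro μ hμ
    rw [mem_primitiveRoots hn] at hμ
    have : NeZero n := ⟨hn.ne'⟩
    obtain ⟨j, hjn, hj, rfl⟩ := (hζ.isPrimitiveRoot_iff).1 hμ
    exact ⟨j, by rw [mem_filter, mem_range]; exact ⟨hjn, hj⟩, rfl⟩
  · intro j _; rfl

/-- **(AG)** in terms of the exponents. -/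
theorem ag {n : ℕ} (hn : 0 < n) {ζ : ℂ} (hζ : IsPrimitiveRoot ζ n) (P : ℤ[X])
    (h : aeval ζ P ≠ 0) :
    (n.totient : ℝ) ≤ ∑ j ∈ (range n).filter (fun j => j.Coprime n), ‖aeval (ζ ^ j) P‖ ^ 2 ∧
    (∑ j ∈ (range n).filter (fun j => j.Coprime n), ‖aeval (ζ ^ j) P‖ ^ 2 ≤ (n.totient : ℝ) →
      ∀ j : ℕ, j.Coprime n → ‖aeval (ζ ^ j) P‖ = 1) := by
  have h1 := totient_le_sum hn hζ P h
  rw [sum_primitiveRoots hn hζ (fun μ => ‖aeval μ P‖ ^ 2)] at h1
  refine ⟨h1.1, fun h2 j hj => h1.2 h2 _ ?_⟩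
  rw [mem_primitiveRoots hn]
  exact hζ.pow_of_coprime _ hj

end P179H234
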