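import Vale.Agent.P179.H234.K5
import Vale.Agent.P179.H526.FDP

/-!
# (K5+) the value of `l` at the relative trace of `u b_u`, `u` regular for the inertial group
-/

namespace P179Y

open Subgroup Finset P179H524 P179C P179A P179P

open scoped Classical

section Final

variable (p : ℕ) [hp : Fact p.Prime] {k : Type*} [Field k] [IsAlgClosed k] [CharP k p]
  (red : integralClosure ℤ ℂ →+* k) {G : Type} [Group G] [Fintype G] {D : Subgroup G}
  {l : (G → k) → k}

include p hp in
theorem K5T_aux (hl : BP p D l) (hD : IsPGroup p D) (hab : D ≤ centralizer (D : Set G))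
    {u : G} (hu : RegT D l u) {H : Subgroup G} (hH : H = centralizer {u}) {b : H → k} (hb : IsCF b)
    (hbb : conv b b = b) (hlb : lres H l b = 1)
    (hpsi : ∀ ψ : Irr H, ¬ InL red (lres H l) ψ.1 → lam red ψ.1 b = 0) :
    l (trG H (fun x => ext H b (u⁻¹ * x))) =
      ((centralizer (D : Set G)).relIndex (stabT D l) : k) := by
  have hDH : D ≤ H := hH ▸ le_cent_of_mem hu.1 hab
  have hCH : centralizer (D : Set G) ≤ H := hH ▸ cent_le_of_mem hu.1
  have hHu : ∀ {h : G}, h ∈ H → h * u = u * h := fun {h} hh =>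
    mem_centralizer_singleton_iff.1 (hH ▸ hh)
  have hlH := hl.restrict hDH hCH
  have hDp : IsPGroup p (D.subgroupOf H) := hD.comap_subtype
  have habH : D.subgroupOf H ≤ centralizer ((D.subgroupOf H : Subgroup H) : Set H) := by
    intro x hx
    rw [mem_cent_subgroupOf hDH]
    exact hab (by simpa [Subgroup.mem_subgroupOf] using hx)
  obtain ⟨y, hyCF, hyD, hly⟩ := exists_Y hlH hDp habH (by
    subst hH
    rw [hu.relIndex_stabT hab]
    exact fun h => hp.out.one_lt.ne' (Nat.dvd_one.1 h))
  have hbD : SuppIn p (D.subgroupOf H) b := suppIn_of_block p red hb hbb hpsi hyCF hly hyD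
  set a : G → k := fun x => ext H b (u⁻¹ * x) with ha
  have hainv : ∀ h ∈ H, ∀ x, a (h * x * h⁻¹) = a x := by
    intro h hh x
    have e : u⁻¹ * (h * x * h⁻¹) = h * (u⁻¹ * x) * h⁻¹ := by
      have h1 := hHu hh
      have h2 : u⁻¹ * h = h * u⁻¹ := by
        calc u⁻¹ * h = u⁻¹ * (h * u) * u⁻¹ := by group
          _ = h * u⁻¹ := by rw [h1]; group
      calc u⁻¹ * (h * x * h⁻¹) = (u⁻¹ * h) * x * h⁻¹ := by group
        _ = h * (u⁻¹ * x) * h⁻¹ := by rw [h2]; group
    simp only [ha]
    rw [e]
    by_cases hx : u⁻¹ * x ∈ H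
    · rw [ext_of_mem H b hx, ext_of_mem H b (mul_mem (mul_mem hh hx) (inv_mem hh))]
      exact hb ⟨h, hh⟩ ⟨_, hx⟩
    · rw [ext_of_not_mem H b hx, ext_of_not_mem H b]
      intro h1
      apply hx
      have h2 := mul_mem (mul_mem (inv_mem hh) h1) hh
      have e1 : h⁻¹ * (h * (u⁻¹ * x) * h⁻¹) * h = u⁻¹ * x := by group
      rwa [e1] at h2
  -- the relative trace on the centraliser of `D`
  have htr : ∀ x ∈ centralizer (D : Set G), trG H a x = ∑ c : G ⧸ H,
        (if ∃ h ∈ H, c.out * h ∈ normalizer (D : Set G) then a (c.out⁻¹ * x * c.out) else 0) := by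
    intro x hx
    rw [← sub_eq_zero]
    unfold trG
    rw [← Finset.sum_sub_distrib]
    have h := exists_fixed_coset p H hainv (x := x)
      (fun c => ¬ ∃ h ∈ H, c * h ∈ normalizer (D : Set G)) D hD ?_ ?_ ?_ ?_
    · refine Eq.trans (Finset.sum_congr rfl fun c _ => ?_) h
      by_cases hc : ∃ h ∈ H, c.out * h ∈ normalizer (D : Set G)
      · rw [if_pos hc, if_neg (not_not.2 hc), sub_self]
      · rw [if_neg hc, if_pos hc, sub_zero]
    · intro d hd
      rw [mem_centralizer_singleton_iff]
      exact (mem_centralizer_iff.1 hx d hd)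
    · intro q hq c
      have hqN := cent_le_norm D (hab hq)
      refine not_congr (exists_congr fun h => and_congr_right fun _ => ?_)
      rw [mul_assoc]
      exact ⟨fun h => mul_mem hqN h, fun h => by simpa using mul_mem (inv_mem hqN) h⟩
    · intro q hq c
      refine not_congr ⟨?_, ?_⟩
      · rintro ⟨h, hh, hn⟩
        exact ⟨q⁻¹ * h, mul_mem (inv_mem hq) hh, by simpa [mul_assoc] using hn⟩
      · rintro ⟨h, hh, hn⟩
        exact ⟨q * h, mul_mem hq hh, by simpa [mul_assoc] using hn⟩
    · intro c hc hcD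
      by_contra hne
      apply hc
      simp only [ha] at hne
      have hs : u⁻¹ * (c⁻¹ * x * c) ∈ H := by
        by_contra h
        exact hne (ext_of_not_mem H b h)
      rw [ext_of_mem H b hs] at hne
      let P : Subgroup H := (D.map (MulAut.conj c⁻¹).toMonoidHom).subgroupOf H
      have hP : IsPGroup p P := (hD.map _).comap_subtype
      obtain ⟨h, hh⟩ := hbD _ hne P hP (by
        intro q hq
        rw [mem_centralizer_singleton_iff]
        obtain ⟨d, hd, hdq⟩ := (Subgroup.mem_subgroupOf.1 hq)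
        apply Subtype.ext
        change (q : G) * (u⁻¹ * (c⁻¹ * x * c)) = (u⁻¹ * (c⁻¹ * x * c)) * (q : G)
        have h2 : (q : G) = c⁻¹ * d * c := by
          have : (q : G) = (MulAut.conj c⁻¹) d := hdq.symm
          rw [this]; simp
        have h3 := mem_centralizer_iff.1 hx d hd
        have h4 := hHu q.2
        have h5 : (q : G) * u⁻¹ = u⁻¹ * q := by
          calc (q : G) * u⁻¹ = u⁻¹ * (u * q) * u⁻¹ := by group
            _ = u⁻¹ * q := by rw [← h4]; group
        have h6 : (q : G) * (c⁻¹ * x * c) = (c⁻¹ * x * c) * q := by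
          rw [h2]
          calc c⁻¹ * d * c * (c⁻¹ * x * c) = c⁻¹ * (d * x) * c := by group
            _ = c⁻¹ * x * c * (c⁻¹ * d * c) := by rw [h3]; group
        calc (q : G) * (u⁻¹ * (c⁻¹ * x * c)) = ((q : G) * u⁻¹) * (c⁻¹ * x * c) :=
              (mul_assoc _ _ _).symm
          _ = u⁻¹ * ((q : G) * (c⁻¹ * x * c)) := by rw [h5]; exact mul_assoc _ _ _
          _ = u⁻¹ * (c⁻¹ * x * c) * (q : G) := by rw [h6]; exact (mul_assoc _ _ _).symm)
      refine ⟨h, h.2, ?_⟩
      apply mem_norm_of_conj_le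
      intro d hd
      have h3 := hh ⟨c⁻¹ * d * c, hcD d hd⟩ (by
        rw [Subgroup.mem_subgroupOf]
        exact ⟨d, hd, by simp⟩)
      rw [Subgroup.mem_subgroupOf] at h3
      have e : ((h⁻¹ * ⟨c⁻¹ * d * c, hcD d hd⟩ * h : H) : G) =
          (c * (h : G))⁻¹ * d * (c * (h : G)) := by
        change (h : G)⁻¹ * (c⁻¹ * d * c) * (h : G) = _
        group
      rwa [e] at h3

  have h2 : l (trG H a) = ∑ c : G ⧸ H,
      l (if ∃ h ∈ H, c.out * h ∈ normalizer (D : Set G) then cj c.out a else 0) := by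
    rw [← hl.sum]
    refine hl.congr fun x hx => ?_
    rw [htr x hx, Finset.sum_apply]
    refine Finset.sum_congr rfl fun c _ => ?_
    split_ifs <;> rfl
  have hbext : ∀ h ∈ H, ∀ x, ext H b (h * x * h⁻¹) = ext H b x := by
    intro h hh x
    by_cases hx : x ∈ H
    · rw [ext_of_mem H b hx, ext_of_mem H b (mul_mem (mul_mem hh hx) (inv_mem hh))]
      exact hb ⟨h, hh⟩ ⟨x, hx⟩
    · rw [ext_of_not_mem H b hx, ext_of_not_mem H b]
      intro h1
      apply hx
      have h2 := mul_mem (mul_mem (inv_mem hh) h1) hh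
      have e1 : h⁻¹ * (h * x * h⁻¹) * h = x := by group
      rwa [e1] at h2
  have hcjH : ∀ (z : G → k), (∀ h ∈ H, ∀ x, z (h * x * h⁻¹) = z x) → ∀ n, ∀ h ∈ H,
      cj (n * h) z = cj n z := by
    intro z hz n h hh
    funext x
    unfold cj
    rw [← hz h hh]
    congr 1
    group
  have hbi : ∀ n ∈ normalizer (D : Set G), ∀ c ∈ centralizer (D : Set G), ∀ x,
      cj n (ext H b) (c * x * c⁻¹) = cj n (ext H b) x := by
    intro n hn c hc x
    have hc' : n⁻¹ * c * n ∈ centralizer (D : Set G) := by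
      have := (conj_mem_cent (inv_mem hn) c).2 hc
      simpa using this
    have hcH := hCH hc'
    unfold cj
    have e : n⁻¹ * (c * x * c⁻¹) * n = (n⁻¹ * c * n) * (n⁻¹ * x * n) * (n⁻¹ * c * n)⁻¹ := by
      group
    rw [e]
    exact hbext _ hcH _
  have h3 : ∀ n ∈ normalizer (D : Set G), l (cj n a) =
      if ∃ h ∈ H, n * h ∈ stabT D l then 1 else 0 := by
    intro n hn
    have hv : n * u * n⁻¹ ∈ D := (mem_normalizer_iff.1 hn u).1 hu.1
    have e1 : cj n a = conv (dl (n * u * n⁻¹)) (cj n (ext H b)) := by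
      rw [conv_dl]
      funext x
      simp only [cj, ha]
      congr 1
      group
    have hvi : ∀ c ∈ centralizer (D : Set G), ∀ x : G,
        (dl (n * u * n⁻¹) : G → k) (c * x * c⁻¹) = dl (n * u * n⁻¹) x := by
      intro c hc x
      have h1 : c * (n * u * n⁻¹) * c⁻¹ = n * u * n⁻¹ := by
        have := mem_centralizer_iff.1 hc _ hv
        rw [← this]; group
      have h2 : c * x * c⁻¹ = n * u * n⁻¹ ↔ x = n * u * n⁻¹ := by
        constructor
        · intro h
          have h3 : c⁻¹ * (c * x * c⁻¹) * c = c⁻¹ * (c * (n * u * n⁻¹) * c⁻¹) * c := by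
            rw [h, h1]
          have e1 : c⁻¹ * (c * x * c⁻¹) * c = x := by group
          have e2 : c⁻¹ * (c * (n * u * n⁻¹) * c⁻¹) * c = n * u * n⁻¹ := by group
          rwa [e1, e2] at h3
        · intro h
          rw [h]; exact h1
      simp only [dl, h2]
    rw [e1, hl.mul' hD hab hvi (hbi n hn), hl.dl_eq_one hD hab hv, one_mul]
    by_cases hnT : ∃ h ∈ H, n * h ∈ stabT D l
    · rw [if_pos hnT]
      obtain ⟨h, hh, hnh⟩ := hnT
      rw [← hcjH _ hbext n h hh]
      have hhN : n * h ∈ normalizer (D : Set G) := stabT_le_norm D l hnh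
      rw [← hl.cj_cut hhN]
      rw [mem_stabT] at hnh
      have hinv : InvOn (centralizer (D : Set G)) (cutC D (ext H b)) := by
        refine ⟨fun c hc x => ?_, fun x hx => ?_⟩
        · unfold cutC
          by_cases hx : x ∈ centralizer (D : Set G)
          · rw [if_pos hx, if_pos (mul_mem (mul_mem hc hx) (inv_mem hc))]
            exact hbext c (hCH hc) x
          · rw [if_neg hx, if_neg]
            intro h
            apply hx
            have := mul_mem (mul_mem (inv_mem hc) h) hc
            have e1 : c⁻¹ * (c * x * c⁻¹) * c = x := by group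
            rwa [e1] at this
        · unfold cutC
          rw [if_neg hx]
      rw [hnh.2 _ hinv, hl.cut]
      exact hlb
    · rw [if_neg hnT]
      have hHT : ¬ p ∣ (centralizer ((D.subgroupOf H : Subgroup H) : Set H)).relIndex
          (stabT (D.subgroupOf H) (lres H l)) := by
        subst hH
        rw [hu.relIndex_stabT hab]
        exact fun h => hp.out.one_lt.ne' (Nat.dvd_one.1 h)
      have hex : ∃ z, InvOn H z ∧ l (cj n z) ≠ l z := by
        by_contra hcon
        push Not at hcon
        obtain ⟨c, hc, hcT⟩ := fusionH hl hD hab hDH hCH hHT (g := n⁻¹) (by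
          intro d hd
          exact hDH ((mem_normalizer_iff.1 (inv_mem hn) d).1 hd)) (by
          intro z hz
          rw [inv_inv]
          exact hcon z hz)
        apply hnT
        refine ⟨c, hc, ?_⟩
        have := inv_mem hcT
        rwa [mul_inv_rev, inv_inv, inv_inv] at this
      obtain ⟨z, hz, hzne⟩ := hex
      have hμ := hl.isHomCF_cj hD hab hCH hn (H := H)
      obtain ⟨ψ, hψ⟩ := exists_inL p red hμ
      have hzz : ext H (fun h : H => z h) = z := ext_restr' hz.2
      have hzCF : IsCF (fun h : H => z h) := fun h x => hz.1 h h.2 x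
      by_cases hψl : InL red (lres H l) ψ.1
      · exfalso
        apply hzne
        have h5 := hψ _ hzCF
        rw [hψl _ hzCF] at h5
        unfold lres at h5
        beta_reduce at h5
        rw [hzz] at h5
        exact h5.symm
      · have := hpsi ψ hψl
        rw [hψ b hb] at this
        exact this
  have h4 : ∀ c : G ⧸ H, l (if ∃ h ∈ H, c.out * h ∈ normalizer (D : Set G) then cj c.out a else 0)
      = if ∃ h ∈ H, c.out * h ∈ stabT D l then 1 else 0 := by
    intro c
    by_cases hc : ∃ h ∈ H, c.out * h ∈ normalizer (D : Set G)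
    · rw [if_pos hc]
      obtain ⟨h, hh, hn⟩ := hc
      rw [← hcjH a hainv c.out h hh, h3 _ hn]
      refine if_congr ⟨?_, ?_⟩ rfl rfl
      · rintro ⟨h', hh', hT⟩
        exact ⟨h * h', mul_mem hh hh', by rwa [← mul_assoc]⟩
      · rintro ⟨h', hh', hT⟩
        refine ⟨h⁻¹ * h', mul_mem (inv_mem hh) hh', ?_⟩
        have e : c.out * h * (h⁻¹ * h') = c.out * h' := by group
        rwa [e]
    · rw [if_neg hc, hl.zero, if_neg]
      rintro ⟨h, hh, hT⟩
      exact hc ⟨h, hh, stabT_le_norm D l hT⟩
  rw [h2, Finset.sum_congr rfl fun c _ => h4 c, ← card_cosets _ _ (cent_le_stabT D l),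
    ← Finset.sum_filter, Finset.sum_const, nsmul_one]
  congr 1
  symm
  refine Finset.card_bij (fun d _ => ((d.out : G) : G ⧸ H)) ?_ ?_ ?_
  · intro d hd
    rw [mem_filter] at hd ⊢
    refine ⟨Finset.mem_univ _, ?_⟩
    obtain ⟨h, hh⟩ := QuotientGroup.mk_out_eq_mul H d.out
    refine ⟨(h : G)⁻¹, inv_mem h.2, ?_⟩
    rw [hh]
    simpa using hd.2
  · intro d hd d' hd' hdd
    rw [mem_filter] at hd hd'
    have h2 : (d.out)⁻¹ * d'.out ∈ H := QuotientGroup.eq.1 hdd
    have h3 : (d.out)⁻¹ * d'.out ∈ stabT D l := mul_mem (inv_mem hd.2) hd'.2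
    have h4 : (d.out)⁻¹ * d'.out ∈ centralizer (D : Set G) := by
      refine hu.2 _ h3 ?_
      rw [hHu h2]; group
    have h5 : ((d.out : G) : G ⧸ centralizer (D : Set G)) = ((d'.out : G) : G ⧸ _) :=
      QuotientGroup.eq.2 h4
    rwa [QuotientGroup.out_eq', QuotientGroup.out_eq'] at h5
  · intro c hc
    rw [mem_filter] at hc
    obtain ⟨h, hh, hn⟩ := hc.2
    refine ⟨((c.out * h : G) : G ⧸ centralizer (D : Set G)), ?_, ?_⟩
    · rw [mem_filter]
      refine ⟨Finset.mem_univ _, ?_⟩
      obtain ⟨h', hh'⟩ := QuotientGroup.mk_out_eq_mul (centralizer (D : Set G)) (c.out * h)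
      rw [hh']
      exact mul_mem hn (cent_le_stabT D l h'.2)
    · obtain ⟨h', hh'⟩ := QuotientGroup.mk_out_eq_mul (centralizer (D : Set G)) (c.out * h)
      rw [hh']
      have h2 : ((c.out * h * h' : G) : G ⧸ H) = ((c.out : G) : G ⧸ H) := by
        rw [QuotientGroup.eq]
        have : (c.out * h * h')⁻¹ * c.out = (h * h')⁻¹ := by group
        rw [this]
        exact inv_mem (mul_mem hh (hCH h'.2))
      rw [h2, QuotientGroup.out_eq']

include p hp in
/-- **(K5+)**, for elements regular for the inertial group -/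
theorem K5T (hl : BP p D l) (hD : IsPGroup p D) (hab : D ≤ centralizer (D : Set G))
    {u : G} (hu : RegT D l u) {b : (centralizer {u} : Subgroup G) → k} (hb : IsCF b)
    (hbb : conv b b = b) (hlb : lres (centralizer {u}) l b = 1)
    (hpsi : ∀ ψ : Irr (centralizer {u} : Subgroup G),
      ¬ InL red (lres (centralizer {u}) l) ψ.1 → lam red ψ.1 b = 0) :
    l (trG (centralizer {u}) (fun x => ext (centralizer {u}) b (u⁻¹ * x))) =
      ((centralizer (D : Set G)).relIndex (stabT D l) : k) :=
  K5T_aux p red hl hD hab hu rfl hb hbb hlb hpsi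

end Final

end P179Y
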