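import Vale.Agent.P179.H526.YDefs
import Vale.Agent.P179.H524.N3

/-!
# (C0) every algebra homomorphism of the centre is the reduction of a central character
-/

namespace P179Y

open Subgroup Finset P179H524 P179C P179A P179P

open scoped Classical

universe u

section C0

variable (p : ℕ) [hp : Fact p.Prime] {k : Type*} [Field k] [IsAlgClosed k] [CharP k p]
  (red : integralClosure ℤ ℂ →+* k) {G : Type} [Group G] [Fintype G]

include p hp in
/-- Every block contains an ordinary character. -/
theorem exists_mem_IrrB {B : MonoidAlgebra k G} (hB : IsBlock B) :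
    ∃ χ : Irr G, χ.1 ∈ P179X.IrrB red B := by
  obtain ⟨r, d, hd, f, hf, hker⟩ := exists_wedderburn k G
  obtain ⟨l, hl⟩ := C2.exists_scalar f hf B hB.1
  have h1 : ∃ i, l i = 1 := by
    by_contra hcon
    push Not at hcon
    have h0 : ∀ i, l i = 0 := fun i =>
      (C2.scalar_idem f B hB.2.1 l hl i).resolve_right (hcon i)
    have h2 : f B = 0 := by
      funext i
      rw [hl, h0, map_zero]
      rfl
    obtain ⟨n, hn⟩ := isNilpotent_of_mem_jacobson B (hker _ h2)
    have h3 : ∀ n : ℕ, B ^ (n + 1) = B := by
      intro n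
      induction n with
      | zero => simp
      | succ n ih => rw [pow_succ, ih, hB.2.1]
    have h4 : B ^ (n + 1) = 0 := by rw [pow_succ, hn, zero_mul]
    exact hB.2.2.1 (by rw [← h3 n, h4])
  obtain ⟨i, hi⟩ := h1
  obtain ⟨c, hc1, hc2⟩ := exists_comb_block p red f hB l hl i hi
  by_contra hcon
  push Not at hcon
  have hc0 : ∀ χ, c χ = 0 := fun χ => by
    by_contra h0
    exact hcon χ (hc1 χ h0)
  have hτ : ∀ y : G, ¬ p ∣ orderOf y → trFun f (Pi.single i 1) y = 0 := by
    intro y hy
    rw [← hc2 y hy]
    exact Finset.sum_eq_zero fun χ _ => by rw [hc0, zero_mul]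
  have hτ2 : ∀ y : G, trFun f (Pi.single i 1) y = 0 := fun y =>
    trFun_regular p f (Pi.single i 1) hτ y
  obtain ⟨x, hx⟩ := hf (Pi.single i (Matrix.single 0 0 1))
  have h5 := trFun_eq_zero f (Pi.single i 1) hτ2 x
  rw [hx, Finset.sum_eq_single i] at h5
  · simp at h5
  · intro j _ hj
    rw [Pi.single_eq_of_ne hj, zero_mul]
  · intro h; exact absurd (Finset.mem_univ i) h

/-- The algebra homomorphism attached to `l`. -/
noncomputable def homOf {l : (G → k) → k} (hl : IsHomCF l) :
    Subalgebra.center k (MonoidAlgebra k G) →ₐ[k] k :=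
  AlgHom.ofLinearMap
    { toFun := fun z => l (fun h => z.1.coeff h)
      map_add' := fun a b => hl.add _ _
      map_smul' := fun c a => hl.smul c _ }
    (by
      change l (fun h => (1 : MonoidAlgebra k G).coeff h) = 1
      rw [← hl.one]
      congr 1
      ext h
      rw [MonoidAlgebra.one_def, MonoidAlgebra.coeff_single, Finsupp.single_apply]
      simp only [eq_comm])
    (fun a b => by
      change l (fun h => (a.1 * b.1).coeff h) = _
      have h1 : (fun h => (a.1 * b.1).coeff h) =
          conv (fun h => a.1.coeff h) (fun h => b.1.coeff h) := by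
        ext h; exact coeff_mul_eq_conv _ _ h
      rw [h1, hl.mul _ _ ((mem_center_iff _).mp a.2) ((mem_center_iff _).mp b.2)]
      rfl)

omit [IsAlgClosed k] in
theorem homOf_apply {l : (G → k) → k} (hl : IsHomCF l)
    (z : Subalgebra.center k (MonoidAlgebra k G)) :
    homOf hl z = l (fun h => z.1.coeff h) := rfl

omit [IsAlgClosed k] [Group G] in
/-- every function is the coefficient function of an element of the group algebra -/
theorem exists_coeff_eq (a : G → k) : ∃ z : MonoidAlgebra k G, (fun h => z.coeff h) = a := by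
  refine ⟨∑ g : G, MonoidAlgebra.single g (a g), ?_⟩
  funext h
  rw [MonoidAlgebra.coeff_sum, Finsupp.finsetSum_apply]
  simp [Finsupp.single_apply]

include p hp in
/-- **(C0)** Every algebra homomorphism of the centre is the reduction of the central character of
an ordinary irreducible character. -/
theorem exists_inL {l : (G → k) → k} (hl : IsHomCF l) : ∃ χ : Irr G, InL red l χ.1 := by
  obtain ⟨B, hB, hBl⟩ := P179C.homBlockStmt (k := k) (G := G) (homOf hl)
  obtain ⟨χ, hχ⟩ := exists_mem_IrrB p red hB
  refine ⟨χ, ?_⟩
  have h1 : CharInBlock red χ.1 B := by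
    unfold P179X.IrrB at hχ
    rw [mem_filter] at hχ
    exact hχ.2
  have h2 : lamHom red χ.1 χ.2 = homOf hl := by
    refine eq_of_classSum _ _ fun g => ?_
    rw [hBl, lamHom_apply, lam_classSum red χ.2 g]
    exact (h1 g).symm
  intro z hz
  obtain ⟨Z, rfl⟩ := exists_coeff_eq z
  have h3 := DFunLike.congr_fun h2 ⟨Z, (mem_center_iff _).2 hz⟩
  rw [lamHom_apply, homOf_apply] at h3
  exact h3

omit [IsAlgClosed k] [Fintype G] in
/-- In terms of characters: two functionals agree on the class functions if they contain the same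
character. -/
theorem InL.congr {l l' : (G → k) → k} {χ : G → ℂ} (h : InL red l χ) (h' : InL red l' χ)
    {z : G → k} (hz : IsCF z) : l z = l' z := by
  rw [← h z hz, ← h' z hz]

end C0

end P179Y
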