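import Vale.Agent.P179.H526.KY
import Vale.Agent.P179.H234.C0

/-!
# Homomorphisms of the centre and nilpotent elements; the support of a block idempotent
-/

namespace P179Y

open Subgroup Finset P179H524 P179C P179A P179P

open scoped Classical

/-- An element of a finite-dimensional commutative algebra over an algebraically closed field which
is killed by all homomorphisms to the field is nilpotent. -/
theorem isNilpotent_of_forall_hom {k Z : Type*} [Field k] [IsAlgClosed k] [CommRing Z]
    [Algebra k Z] [Module.Finite k Z] (x : Z) (h : ∀ μ : Z →ₐ[k] k, μ x = 0) : IsNilpotent x := by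
  rw [← mem_nilradical, nilradical_eq_sInf, Ideal.mem_sInf]
  intro P hP
  have hP' : P.IsPrime := hP
  have : Module.Finite k (Z ⧸ P) := inferInstance
  have : Algebra.IsIntegral k (Z ⧸ P) := inferInstance
  have hb := IsAlgClosed.algebraMap_bijective_of_isIntegral (k := k) (K := Z ⧸ P)
  let e : k ≃ₐ[k] (Z ⧸ P) := AlgEquiv.ofBijective (Algebra.ofId k (Z ⧸ P)) hb
  have h1 := h (e.symm.toAlgHom.comp (Ideal.Quotient.mkₐ k P))
  have h2 : e.symm (Ideal.Quotient.mk P x) = 0 := h1
  rw [EmbeddingLike.map_eq_zero_iff] at h2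
  exact Ideal.Quotient.eq_zero_iff_mem.1 h2

section Hom

variable (p : ℕ) [hp : Fact p.Prime] {k : Type*} [Field k] [IsAlgClosed k] [CharP k p]
  (red : integralClosure ℤ ℂ →+* k) {G : Type} [Group G] [Fintype G]

include p hp in
/-- Every algebra homomorphism of the centre is the reduction of a central character. -/
theorem exists_lamHom (μ : Subalgebra.center k (MonoidAlgebra k G) →ₐ[k] k) :
    ∃ χ : Irr G, lamHom red χ.1 χ.2 = μ := by
  obtain ⟨B, hB, hBl⟩ := P179C.homBlockStmt (k := k) (G := G) μ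
  obtain ⟨χ, hχ⟩ := exists_mem_IrrB p red hB
  refine ⟨χ, ?_⟩
  have h1 : CharInBlock red χ.1 B := by
    unfold P179X.IrrB at hχ
    rw [mem_filter] at hχ
    exact hχ.2
  refine eq_of_classSum _ _ fun g => ?_
  rw [hBl, lamHom_apply, lam_classSum red χ.2 g]
  exact (h1 g).symm

/-- convolution powers -/
noncomputable def cvp (a : G → k) : ℕ → G → k
  | 0 => a
  | n + 1 => conv (cvp a n) a

omit [IsAlgClosed k] in
theorem coeff_pow (Z : MonoidAlgebra k G) (n : ℕ) :
    (fun h => (Z ^ (n + 1)).coeff h) = cvp (fun h => Z.coeff h) n := by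
  induction n with
  | zero => simp [cvp]
  | succ n ih =>
    rw [cvp, ← ih, pow_succ]
    funext h
    exact coeff_mul_eq_conv _ _ h

include p hp in
/-- the block idempotent `b` is a power of `y * b` up to a scalar, if `y` does not vanish in the
block. -/
theorem exists_cvp_eq {b y : G → k} {l : (G → k) → k} (hb : IsCF b)
    (hbb : conv b b = b) (hpsi : ∀ ψ : Irr G, ¬ InL red l ψ.1 → lam red ψ.1 b = 0)
    (hy : IsCF y) (hly : l y ≠ 0) :
    ∃ (c : k) (n : ℕ), b = c • cvp (conv y b) n := by
  obtain ⟨B, hB⟩ := exists_coeff_eq b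
  obtain ⟨Y, hY⟩ := exists_coeff_eq y
  have hBc : B ∈ Subalgebra.center k (MonoidAlgebra k G) :=
    (mem_center_iff _).2 (by rw [hB]; exact hb)
  have hYc : Y ∈ Subalgebra.center k (MonoidAlgebra k G) :=
    (mem_center_iff _).2 (by rw [hY]; exact hy)
  let B' : Subalgebra.center k (MonoidAlgebra k G) := ⟨B, hBc⟩
  let Y' : Subalgebra.center k (MonoidAlgebra k G) := ⟨Y, hYc⟩
  have hBB : B' * B' = B' := by
    apply Subtype.ext
    change B * B = B
    ext h
    have h1 := congrFun hbb h
    rw [coeff_mul_eq_conv, hB, h1]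
    exact (congrFun hB h).symm
  have : Module.Finite k (MonoidAlgebra k G) :=
    Module.Finite.equiv (MonoidAlgebra.coeffLinearEquiv k).symm
  have hfin : Module.Finite k (Subalgebra.center k (MonoidAlgebra k G)) :=
    Module.Finite.of_injective (Subalgebra.center k (MonoidAlgebra k G)).val.toLinearMap
      Subtype.val_injective
  have hnil : IsNilpotent (Y' * B' - l y • B') := by
    apply isNilpotent_of_forall_hom (k := k)
    intro μ
    obtain ⟨ψ, hψ⟩ := exists_lamHom p red μ
    rw [map_sub, map_mul, map_smul, smul_eq_mul]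
    have e1 : μ B' = lam red ψ.1 b := by
      rw [← hψ, lamHom_apply]
      congr 1
    have e2 : μ Y' = lam red ψ.1 y := by
      rw [← hψ, lamHom_apply]
      congr 1
    rw [e1, e2]
    by_cases h : InL red l ψ.1
    · rw [h y hy, sub_self]
    · rw [hpsi ψ h, mul_zero, mul_zero, sub_zero]
  obtain ⟨N, hN⟩ := hnil
  have : CharP (Subalgebra.center k (MonoidAlgebra k G)) p :=
    charP_of_injective_algebraMap (FaithfulSMul.algebraMap_injective k _) p
  have hpow : (Y' * B' - l y • B') ^ p ^ N = 0 :=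
    pow_eq_zero_of_le (Nat.lt_pow_self hp.out.one_lt).le hN
  rw [sub_pow_char_pow_of_commute _ _ (Commute.all _ _)] at hpow
  have hBp : ∀ n : ℕ, B' ^ (n + 1) = B' := by
    intro n
    induction n with
    | zero => simp
    | succ n ih => rw [pow_succ, ih, hBB]
  have hN1 : p ^ N = (p ^ N - 1) + 1 := (Nat.sub_add_cancel (Nat.one_le_pow _ _ hp.out.pos)).symm
  rw [sub_eq_zero, smul_pow, hN1, hBp, ← hN1] at hpow
  refine ⟨((l y) ^ p ^ N)⁻¹, p ^ N - 1, ?_⟩
  have h1 : B' = ((l y) ^ p ^ N)⁻¹ • (Y' * B') ^ (p ^ N - 1 + 1) := by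
    rw [← hN1, hpow, smul_smul, inv_mul_cancel₀ (pow_ne_zero _ hly), one_smul]
  have h2 := congrArg (fun z => fun h => (z : MonoidAlgebra k G).coeff h) (congrArg Subtype.val h1)
  have h3 : (fun h => B.coeff h) = fun h =>
      (((l y) ^ p ^ N)⁻¹ • (Y * B) ^ (p ^ N - 1 + 1)).coeff h := h2
  have h4 : (fun h => ((Y * B) ^ (p ^ N - 1 + 1)).coeff h) = cvp (conv y b) (p ^ N - 1) := by
    rw [coeff_pow]
    congr 1
    funext h
    rw [coeff_mul_eq_conv, hB, hY]
  rw [← h4]
  refine (hB.symm.trans h3).trans ?_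
  funext h
  simp

include p hp in
/-- the block idempotent has a defect group contained in `D` -/
theorem suppIn_of_block {D : Subgroup G} {b : G → k} {l : (G → k) → k} (hb : IsCF b)
    (hbb : conv b b = b) (hpsi : ∀ ψ : Irr G, ¬ InL red l ψ.1 → lam red ψ.1 b = 0)
    {y : G → k} (hy : IsCF y) (hly : l y ≠ 0) (hyD : SuppIn p D y) : SuppIn p D b := by
  obtain ⟨c, n, h⟩ := exists_cvp_eq p red hb hbb hpsi hy hly
  have hw : IsCF (conv y b) := isCF_conv hy hb
  have hwD : SuppIn p D (conv y b) := hyD.conv p hy hb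
  have key : ∀ n : ℕ, IsCF (cvp (conv y b) n) ∧ SuppIn p D (cvp (conv y b) n) := by
    intro n
    induction n with
    | zero => exact ⟨hw, hwD⟩
    | succ n ih => exact ⟨isCF_conv ih.1 hw, ih.2.conv p ih.1 hw⟩
  rw [h]
  intro x hx P hP hPx
  refine (key n).2 x ?_ P hP hPx
  intro h0
  apply hx
  rw [Pi.smul_apply, h0, smul_zero]

end Hom

end P179Y
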